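import Vale.Agent.Bang.One

/-!
# P243: the stronger form of Bang's half-area problem (the 1-codimensional cylinder covering
conjecture) is false
-/

namespace Vale.Agent.Results.P243.StrongerFormFalse

open MeasureTheory
open scoped ENNReal RealInnerProductSpace

/-- Euclidean three-space -/
abbrev Space := EuclideanSpace ℝ (Fin 3)

/-- convex bodies: compact convex sets with nonempty interior -/
def IsConvexBody (K : Set Space) : Prop :=
  IsCompact K ∧ Convex ℝ K ∧ (interior K).Nonempty

/-- the orthogonal projection of the point `x` to the plane `u^⊥` -/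
noncomputable def proj (u x : Space) : Space := (ℝ ∙ u)ᗮ.starProjection x

/-- the area of a subset of a plane in space: the two-dimensional Hausdorff measure, normalised so
that it is Lebesgue measure on Euclidean planes -/
noncomputable def area (B : Set Space) : ℝ := (μHE[2] B).toReal

/-- finite coverings of `K` by `m` cylinders `B i + ℝ u i`, where `u i` is a unit vector and the base
`B i` is a measurable subset of the plane `(u i)^⊥`, of finite area -/
structure CylinderCovering (K : Set Space) (m : ℕ) where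
  u : Fin m → Space
  B : Fin m → Set Space
  norm_u : ∀ i, ‖u i‖ = 1
  base : ∀ i, ∀ b ∈ B i, ⟪u i, b⟫ = 0
  meas : ∀ i, MeasurableSet (B i)
  fin : ∀ i, μHE[2] (B i) < ∞
  cover : ∀ x ∈ K, ∃ i, ∃ b ∈ B i, ∃ t : ℝ, x = b + t • u i

/-- the directionwise relative area `Σ_i |B_i| / |π_{u_i^⊥} K|` -/
noncomputable def relArea {K : Set Space} {m : ℕ} (C : CylinderCovering K m) : ℝ :=
  ∑ i, area (C.B i) / area (proj (C.u i) '' K)

/-- `r₃`, the infimum of the directionwise relative area over all convex bodies and all their finite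
cylinder coverings -/
noncomputable def r3 : ℝ :=
  sInf {ρ : ℝ | ∃ (K : Set Space) (m : ℕ) (C : CylinderCovering K m),
    IsConvexBody K ∧ ρ = relArea C}

/-- the stronger form of Bang's half-area question (the 1-codimensional cylinder covering
conjecture of Bezdek and Khan): every finite cylinder covering of a convex body has
directionwise relative area at least `1/2` -/
def CylinderConjecture : Prop :=
  ∀ (K : Set Space) (m : ℕ) (C : CylinderCovering K m), IsConvexBody K → 1 / 2 ≤ relArea C

/-- one cylinder, for a reordering of the vertices -/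
theorem one_cylinder_perm (V : Fin 4 → Space) (hV : AffineIndependent ℝ V) (π : Fin 4 ≃ Fin 4) :
    ∃ (u : Space) (B : Set Space), ‖u‖ = 1 ∧ IsCompact B ∧ (∀ b ∈ B, ⟪u, b⟫ = 0) ∧
      μHE[2] B ≠ ∞ ∧ area B / area (proj u '' convexHull ℝ (Set.range V)) ≤ 13 / 108 ∧
      ∀ a b c d : ℝ, a + b + c + d = 1 → Vale.Agent.Bang.Qc a b c d →
        ∃ y ∈ B, ∃ t : ℝ, Vale.Agent.Bang.comb (V ∘ π) a b c d = y + t • u := by
  have h := Vale.Agent.Bang.one_cylinder (V ∘ π) (hV.comp_embedding π.toEmbedding)
  rw [Set.range_comp, π.surjective.range_eq, Set.image_univ] at h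
  exact h

/-- every tetrahedron has a covering by four cylinders of relative area at most `13/27` -/
theorem tetrahedron (V : Fin 4 → Space) (hV : AffineIndependent ℝ V) :
    ∃ C : CylinderCovering (convexHull ℝ (Set.range V)) 4, relArea C ≤ 13 / 27 := by
  have hspan : affineSpan ℝ (Set.range V) = ⊤ := by
    rw [hV.affineSpan_eq_top_iff_card_eq_finrank_add_one]
    simp
  let b : AffineBasis (Fin 4) ℝ Space := ⟨V, hV, hspan⟩
  have hb : ∀ i, b i = V i := fun i => rfl
  let π1 : Fin 4 ≃ Fin 4 := ⟨![3, 2, 1, 0], ![3, 2, 1, 0], by decide, by decide⟩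
  let π2 : Fin 4 ≃ Fin 4 := ⟨![2, 0, 3, 1], ![1, 3, 0, 2], by decide, by decide⟩
  let π3 : Fin 4 ≃ Fin 4 := ⟨![1, 3, 0, 2], ![2, 0, 3, 1], by decide, by decide⟩
  obtain ⟨u0, B0, hu0, hc0, hp0, hf0, hr0, hm0⟩ := one_cylinder_perm V hV (Equiv.refl _)
  obtain ⟨u1, B1, hu1, hc1, hp1, hf1, hr1, hm1⟩ := one_cylinder_perm V hV π1
  obtain ⟨u2, B2, hu2, hc2, hp2, hf2, hr2, hm2⟩ := one_cylinder_perm V hV π2
  obtain ⟨u3, B3, hu3, hc3, hp3, hf3, hr3, hm3⟩ := one_cylinder_perm V hV π3
  refine ⟨⟨![u0, u1, u2, u3], ![B0, B1, B2, B3], ?_, ?_, ?_, ?_, ?_⟩, ?_⟩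
  · intro i
    fin_cases i
    · exact hu0
    · exact hu1
    · exact hu2
    · exact hu3
  · intro i
    fin_cases i
    · exact hp0
    · exact hp1
    · exact hp2
    · exact hp3
  · intro i
    fin_cases i
    · exact hc0.isClosed.measurableSet
    · exact hc1.isClosed.measurableSet
    · exact hc2.isClosed.measurableSet
    · exact hc3.isClosed.measurableSet
  · intro i
    fin_cases i
    · exact hf0.lt_top
    · exact hf1.lt_top
    · exact hf2.lt_top
    · exact hf3.lt_top
  · intro x hx
    have hx' : x ∈ convexHull ℝ (Set.range b) := hx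
    rw [AffineBasis.convexHull_eq_nonneg_coord] at hx'
    have hnn : ∀ i, 0 ≤ b.coord i x := hx'
    have hsum := b.sum_coord_apply_eq_one x
    have hcomb := b.linear_combination_coord_eq_self x
    rw [Fin.sum_univ_four] at hsum hcomb
    simp only [hb] at hcomb
    rcases Vale.Agent.Bang.cover4 (b.coord 0 x) (b.coord 1 x) (b.coord 2 x) (b.coord 3 x)
      (hnn 0) (hnn 1) (hnn 2) (hnn 3) hsum with h | h | h | h
    · obtain ⟨y, hy, t, ht⟩ := hm0 _ _ _ _ hsum h
      refine ⟨0, y, hy, t, ?_⟩
      change x = y + t • u0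
      rw [← ht]
      exact hcomb.symm
    · obtain ⟨y, hy, t, ht⟩ := hm1 _ _ _ _ (by linarith) h
      refine ⟨1, y, hy, t, ?_⟩
      change x = y + t • u1
      rw [← ht]
      refine hcomb.symm.trans ?_
      simp only [Vale.Agent.Bang.comb, Function.comp_apply, π1, Equiv.coe_fn_mk,
        Matrix.cons_val_zero, Matrix.cons_val_one, Matrix.cons_val]
      abel
    · obtain ⟨y, hy, t, ht⟩ := hm2 _ _ _ _ (by linarith) h
      refine ⟨2, y, hy, t, ?_⟩
      change x = y + t • u2
      rw [← ht]
      refine hcomb.symm.trans ?_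
      simp only [Vale.Agent.Bang.comb, Function.comp_apply, π2, Equiv.coe_fn_mk,
        Matrix.cons_val_zero, Matrix.cons_val_one, Matrix.cons_val]
      abel
    · obtain ⟨y, hy, t, ht⟩ := hm3 _ _ _ _ (by linarith) h
      refine ⟨3, y, hy, t, ?_⟩
      change x = y + t • u3
      rw [← ht]
      refine hcomb.symm.trans ?_
      simp only [Vale.Agent.Bang.comb, Function.comp_apply, π3, Equiv.coe_fn_mk,
        Matrix.cons_val_zero, Matrix.cons_val_one, Matrix.cons_val]
      abel
  · unfold relArea
    rw [Fin.sum_univ_four]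
    have h : ∀ i : Fin 4, area ((![B0, B1, B2, B3] : Fin 4 → Set Space) i) /
        area (proj ((![u0, u1, u2, u3] : Fin 4 → Space) i) '' convexHull ℝ (Set.range V)) ≤
          13 / 108 := by
      intro i
      fin_cases i
      · exact hr0
      · exact hr1
      · exact hr2
      · exact hr3
    have h0 := h 0
    have h1 := h 1
    have h2 := h 2
    have h3 := h 3
    linarith

theorem isConvexBody_tetrahedron (V : Fin 4 → Space) (hV : AffineIndependent ℝ V) :
    IsConvexBody (convexHull ℝ (Set.range V)) := by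
  refine ⟨Set.Finite.isCompact_convexHull ℝ (Set.finite_range V), convex_convexHull ℝ _, ?_⟩
  rw [interior_convexHull_nonempty_iff_affineSpan_eq_top,
    hV.affineSpan_eq_top_iff_card_eq_finrank_add_one]
  simp

theorem relArea_nonneg {K : Set Space} {m : ℕ} (C : CylinderCovering K m) : 0 ≤ relArea C :=
  Finset.sum_nonneg (fun _ _ => div_nonneg ENNReal.toReal_nonneg ENNReal.toReal_nonneg)

/-- Every tetrahedron has a covering by four cylinders with directionwise relative area at most
`13/27`. Consequently `r₃ ≤ 13/27 < 1/2`, and the stronger form of Bang's half-area question is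
false. -/
theorem result :
    (∀ V : Fin 4 → Space, AffineIndependent ℝ V →
      ∃ C : CylinderCovering (convexHull ℝ (Set.range V)) 4, relArea C ≤ 13 / 27) ∧
    r3 ≤ 13 / 27 ∧ ¬ CylinderConjecture := by
  obtain ⟨V0⟩ : Nonempty (AffineBasis (Fin 4) ℝ Space) :=
    AffineBasis.exists_affineBasis_of_finiteDimensional (by simp)
  obtain ⟨C, hC⟩ := tetrahedron V0 V0.ind
  have hK := isConvexBody_tetrahedron V0 V0.ind
  refine ⟨tetrahedron, ?_, ?_⟩
  · refine (csInf_le ⟨0, ?_⟩ ?_).trans hC
    · rintro ρ ⟨K, m, C', -, rfl⟩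
      exact relArea_nonneg C'
    · exact ⟨_, _, C, hK, rfl⟩
  · intro h
    have h1 := h _ _ C hK
    linarith

end Vale.Agent.Results.P243.StrongerFormFalse
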